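/-
Helper62 — project S0175, package TS-B: basics of the abstract two-shell setting
(statements verbatim from `Crest.Agent.Helper32.Spec`: ts_lintegral, ts_univ, ts_meas_range,
ts_ae_mem, ts_integrable_u, ts_inv, ts_rot), plus a self-contained proof of the circle rotation
identity `arc_shift`.
-/
import Mathlib
import Crest.Agent.Helper32.TwoShellDefs

set_option autoImplicit false
set_option linter.unusedSectionVars false
open MeasureTheory Set
open scoped ENNReal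
open Crest.AnalysisR.OT
open Crest.Agent.Helper32

namespace Crest.Agent.Helper62

/-! ### periodicity helpers -/

theorem per_int {E Y : Type*} (Φ : Y × ℝ → E) (hper : ∀ b t, Φ (b, t + 1) = Φ (b, t)) (b : Y)
    (t : ℝ) (n : ℤ) : Φ (b, t + n) = Φ (b, t) := by
  induction n using Int.induction_on with
  | zero => simp
  | succ i ih =>
    have : t + (((i:ℤ) + 1 : ℤ) : ℝ) = (t + (((i:ℤ) : ℤ) : ℝ)) + 1 := by
      rw [Int.cast_add, Int.cast_one]; ring
    rw [this, hper, ih]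
  | pred i ih =>
    have : t + ((-(i:ℤ) : ℤ) : ℝ) = (t + ((-(i:ℤ) - 1 : ℤ) : ℝ)) + 1 := by
      rw [Int.cast_sub, Int.cast_one]; ring
    rw [← ih, this, hper]

theorem per_fract {E Y : Type*} (Φ : Y × ℝ → E) (hper : ∀ b t, Φ (b, t + 1) = Φ (b, t)) (b : Y)
    (t : ℝ) : Φ (b, Int.fract t) = Φ (b, t) := by
  have : Int.fract t = t + ((-⌊t⌋ : ℤ) : ℝ) := by
    rw [Int.fract]; push_cast; ring
  rw [this, per_int Φ hper]

theorem range_eq_image_Ico {E Y : Type*} (Φ : Y × ℝ → E)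
    (hper : ∀ b t, Φ (b, t + 1) = Φ (b, t)) :
    range Φ = Φ '' (univ ×ˢ Ico (0:ℝ) 1) := by
  apply Subset.antisymm
  · rintro _ ⟨⟨b, t⟩, rfl⟩
    refine ⟨(b, Int.fract t), ⟨mem_univ _, Int.fract_nonneg t, Int.fract_lt_one t⟩, ?_⟩
    exact per_fract Φ hper b t
  · exact image_subset_range _ _

/-! ### rotation invariance on the circle (statement of `Spec.arc_shift`) -/

theorem arc_shift (F : ℝ → ℝ≥0∞) (hF : Measurable F) (hper : ∀ t, F (t + 1) = F t) (a : ℝ) :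
    ∫⁻ t in Ico (0:ℝ) 1, F (t + a) = ∫⁻ t in Ico (0:ℝ) 1, F t := by
  have hP : Function.Periodic F 1 := hper
  have e1 : ∫⁻ t in Ico (0:ℝ) 1, F (t + a) = ∫⁻ t in Ioc (0:ℝ) 1, F (t + a) :=
    setLIntegral_congr Ico_ae_eq_Ioc
  have e2 : ∫⁻ t in Ico (0:ℝ) 1, F t = ∫⁻ t in Ioc (0:ℝ) 1, F t :=
    setLIntegral_congr Ico_ae_eq_Ioc
  have e3 : ∫⁻ t in Ioc (0:ℝ) 1, F (t + a) = ∫⁻ x in Ioc a (a + 1), F x := by
    have hmp : MeasurePreserving (fun t : ℝ => t + a) volume volume :=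
      measurePreserving_add_right volume a
    have := hmp.setLIntegral_comp_preimage (s := Ioc a (a + 1)) measurableSet_Ioc hF
    rw [← this]
    congr 2
    ext t
    simp only [mem_preimage, mem_Ioc]
    constructor
    · rintro ⟨h1, h2⟩; exact ⟨by linarith, by linarith⟩
    · rintro ⟨h1, h2⟩; exact ⟨by linarith, by linarith⟩
  have e4 : ∫⁻ x in Ioc a (a + 1), F x = ∫⁻ x in Ioc (0:ℝ) (0 + 1), F x := by
    have : VAddInvariantMeasure (AddSubgroup.zmultiples (1:ℝ)) ℝ volume :=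
      ⟨fun c s _ => measure_preimage_add _ _ _⟩
    apply IsAddFundamentalDomain.setLIntegral_eq (G := AddSubgroup.zmultiples (1:ℝ))
    exacts [isAddFundamentalDomain_Ioc one_pos a, isAddFundamentalDomain_Ioc one_pos 0,
      hP.map_vadd_zmultiples]
  rw [e1, e2, e3, e4, zero_add]

variable {E Y : Type*} [MeasurableSpace E] [StandardBorelSpace E] [MeasurableSpace Y]
  [StandardBorelSpace Y] (ν : Measure Y) [IsFiniteMeasure ν] (ΦA ΦB : Y × ℝ → E) (g : Y → ℝ)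
  (c : E × E × E → ℝ≥0∞) (u : E → ℝ)

/-! ## TS-B : basics shared by TS-1 .. TS-4 -/

theorem ts_lintegral (hA : Measurable ΦA) (hB : Measurable ΦB) (f : E → ℝ≥0∞)
    (hf : Measurable f) :
    ∫⁻ x, f x ∂(tsμ ν ΦA ΦB) =
      ∫⁻ p, f (ΦA p) ∂(tsΛ ν) + 2 * ∫⁻ p, f (ΦB p) ∂(tsΛ ν) := by
  unfold tsμ
  rw [lintegral_add_measure, lintegral_smul_measure, lintegral_map hf hA, lintegral_map hf hB]
  rfl

theorem tsΛ_univ : tsΛ ν univ = ν univ := by
  unfold tsΛ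
  rw [← univ_prod_univ, Measure.prod_prod]
  simp

theorem ts_univ (h : TwoShellHyp ν ΦA ΦB g c u) : tsμ ν ΦA ΦB univ = 1 := by
  unfold tsμ
  rw [Measure.add_apply, Measure.smul_apply, Measure.map_apply h.measA MeasurableSet.univ,
    Measure.map_apply h.measB MeasurableSet.univ, preimage_univ, preimage_univ, tsΛ_univ, h.mass,
    smul_eq_mul]
  have h3 : (3:ℝ≥0∞) ≠ 0 := by norm_num
  have h3' : (3:ℝ≥0∞) ≠ ⊤ := by norm_num
  calc (1:ℝ≥0∞) / 3 + 2 * (1 / 3) = 3 * (1 / 3) := by ring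
    _ = 1 := by rw [one_div]; exact ENNReal.mul_inv_cancel h3 h3'

theorem ts_meas_range (h : TwoShellHyp ν ΦA ΦB g c u) :
    MeasurableSet (range ΦA) ∧ MeasurableSet (range ΦB) := by
  have hs : MeasurableSet ((univ : Set Y) ×ˢ Ico (0:ℝ) 1) :=
    MeasurableSet.univ.prod measurableSet_Ico
  constructor
  · rw [range_eq_image_Ico ΦA h.perA]
    refine hs.image_of_measurable_injOn h.measA ?_
    rintro ⟨b, t⟩ ⟨-, ht⟩ ⟨b', t'⟩ ⟨-, ht'⟩ heq
    obtain ⟨e1, e2⟩ := h.injA b t b' t' ht ht' heq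
    rw [e1, e2]
  · rw [range_eq_image_Ico ΦB h.perB]
    refine hs.image_of_measurable_injOn h.measB ?_
    rintro ⟨b, t⟩ ⟨-, ht⟩ ⟨b', t'⟩ ⟨-, ht'⟩ heq
    obtain ⟨e1, e2⟩ := h.injB b t b' t' ht ht' heq
    rw [e1, e2]

theorem ts_meas_S (h : TwoShellHyp ν ΦA ΦB g c u) : MeasurableSet (tsS ΦA ΦB) :=
  (ts_meas_range ν ΦA ΦB g c u h).1.union (ts_meas_range ν ΦA ΦB g c u h).2

theorem ts_compl_null (h : TwoShellHyp ν ΦA ΦB g c u) : tsμ ν ΦA ΦB (tsS ΦA ΦB)ᶜ = 0 := by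
  have hS := (ts_meas_S ν ΦA ΦB g c u h).compl
  unfold tsμ
  rw [Measure.add_apply, Measure.smul_apply, Measure.map_apply h.measA hS,
    Measure.map_apply h.measB hS]
  have e1 : ΦA ⁻¹' (tsS ΦA ΦB)ᶜ = ∅ := by
    ext p
    simp only [mem_preimage, mem_compl_iff, mem_empty_iff_false, iff_false, not_not]
    exact Or.inl (mem_range_self p)
  have e2 : ΦB ⁻¹' (tsS ΦA ΦB)ᶜ = ∅ := by
    ext p
    simp only [mem_preimage, mem_compl_iff, mem_empty_iff_false, iff_false, not_not]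
    exact Or.inr (mem_range_self p)
  rw [e1, e2]
  simp

theorem ts_ae_mem (h : TwoShellHyp ν ΦA ΦB g c u) :
    ∀ᵐ x ∂(tsμ ν ΦA ΦB), x ∈ tsS ΦA ΦB := by
  rw [ae_iff]
  exact ts_compl_null ν ΦA ΦB g c u h

theorem ts_isFiniteMeasure (h : TwoShellHyp ν ΦA ΦB g c u) : IsFiniteMeasure (tsμ ν ΦA ΦB) :=
  ⟨by rw [ts_univ ν ΦA ΦB g c u h]; exact ENNReal.one_lt_top⟩

theorem ts_integrable_u (h : TwoShellHyp ν ΦA ΦB g c u) : Integrable u (tsμ ν ΦA ΦB) := by
  have := ts_isFiniteMeasure ν ΦA ΦB g c u h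
  obtain ⟨M, hM⟩ := h.bddu
  refine Integrable.of_bound h.measu.aestronglyMeasurable M ?_
  filter_upwards [ts_ae_mem ν ΦA ΦB g c u h] with x hx
  rw [Real.norm_eq_abs]
  rcases hx with ⟨p, rfl⟩ | ⟨p, rfl⟩
  · exact (hM p).1
  · exact (hM p).2

/-- a measurable left inverse on `Y × [0,1)` of a measurable 1-periodic parametrisation which is
injective on `Y × [0,1)` -/
theorem exists_measurable_inv [Nonempty Y] (Φ : Y × ℝ → E) (hΦ : Measurable Φ)
    (hper : ∀ b t, Φ (b, t + 1) = Φ (b, t))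
    (hinj : ∀ b t b' t', t ∈ Ico (0:ℝ) 1 → t' ∈ Ico (0:ℝ) 1 → Φ (b, t) = Φ (b', t') →
      b = b' ∧ t = t') :
    ∃ i : E → Y × ℝ, Measurable i ∧ ∀ b t, t ∈ Ico (0:ℝ) 1 → i (Φ (b, t)) = (b, t) := by
  let Ψ : Y × ℝ → E × ℤ := fun p => (Φ p, ⌊p.2⌋)
  have hΨm : Measurable Ψ := hΦ.prodMk (Int.measurable_floor.comp measurable_snd)
  have hΨi : Function.Injective Ψ := by
    rintro ⟨b, t⟩ ⟨b', t'⟩ heq
    have h1 : Φ (b, t) = Φ (b', t') := congrArg Prod.fst heq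
    have h2 : ⌊t⌋ = ⌊t'⌋ := congrArg Prod.snd heq
    rw [← per_fract Φ hper b t, ← per_fract Φ hper b' t'] at h1
    obtain ⟨e1, e2⟩ := hinj b (Int.fract t) b' (Int.fract t')
      ⟨Int.fract_nonneg t, Int.fract_lt_one t⟩ ⟨Int.fract_nonneg t', Int.fract_lt_one t'⟩ h1
    have : t = t' := by
      have ht := Int.floor_add_fract t
      have ht' := Int.floor_add_fract t'
      rw [← ht, ← ht', h2, e2]
    rw [e1, this]
  have hemb : MeasurableEmbedding Ψ := hΨm.measurableEmbedding hΨi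
  refine ⟨fun x => hemb.invFun (x, 0), hemb.measurable_invFun.comp
    (measurable_id.prodMk measurable_const), ?_⟩
  intro b t ht
  have hfl : ⌊t⌋ = 0 := Int.floor_eq_zero_iff.mpr ht
  have : (Φ (b, t), (0:ℤ)) = Ψ (b, t) := by simp [Ψ, hfl]
  show hemb.invFun (Φ (b, t), (0:ℤ)) = (b, t)
  rw [this]
  exact hemb.leftInverse_invFun (b, t)

/-- measurable inverses of the two parametrisations -/
theorem ts_inv (h : TwoShellHyp ν ΦA ΦB g c u) :
    ∃ iA iB : E → Y × ℝ, Measurable iA ∧ Measurable iB ∧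
      (∀ b t, t ∈ Ico (0:ℝ) 1 → iA (ΦA (b, t)) = (b, t)) ∧
      (∀ b t, t ∈ Ico (0:ℝ) 1 → iB (ΦB (b, t)) = (b, t)) := by
  have hne : Nonempty Y := by
    by_contra hemp
    rw [not_nonempty_iff] at hemp
    have h0 : ν univ = 0 := by rw [univ_eq_empty_iff.mpr hemp]; exact measure_empty
    have := h.mass
    rw [h0] at this
    simp at this
    exact (ENNReal.inv_ne_zero.2 (by norm_num : (3:ℝ≥0∞) ≠ ⊤)) this.symm
  obtain ⟨iA, hiA, hA⟩ := exists_measurable_inv ΦA h.measA h.perA h.injA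
  obtain ⟨iB, hiB, hB⟩ := exists_measurable_inv ΦB h.measB h.perB h.injB
  exact ⟨iA, iB, hiA, hiB, hA, hB⟩

/-- fibrewise rotation invariance of `tsΛ` -/
theorem ts_rot (F : Y × ℝ → ℝ≥0∞) (hF : Measurable F) (hper : ∀ b t, F (b, t + 1) = F (b, t))
    (a : Y → ℝ) (ha : Measurable a) :
    ∫⁻ p, F (p.1, p.2 + a p.1) ∂(tsΛ ν) = ∫⁻ p, F p ∂(tsΛ ν) := by
  unfold tsΛ
  have hm : Measurable (fun p : Y × ℝ => F (p.1, p.2 + a p.1)) :=
    hF.comp (measurable_fst.prodMk (measurable_snd.add (ha.comp measurable_fst)))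
  rw [lintegral_prod _ hm.aemeasurable, lintegral_prod _ hF.aemeasurable]
  refine lintegral_congr fun b => ?_
  exact arc_shift (fun t => F (b, t)) (hF.comp measurable_prodMk_left) (hper b) (a b)

end Crest.Agent.Helper62
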