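/-
Helper62 — project S0175, package TS-1: weak duality in the abstract two-shell setting
(statement verbatim from `Crest.Agent.Helper32.Spec.ts_lower`).
-/
import Mathlib
import Crest.Agent.Helper32.TwoShellDefs
import Crest.Agent.Helper62.OT3.Duality
import Crest.Agent.Helper62.TwoShell.TSB

set_option autoImplicit false
set_option linter.unusedSectionVars false
open MeasureTheory Set
open scoped ENNReal
open Crest.AnalysisR.OT
open Crest.Agent.Helper32

namespace Crest.Agent.Helper62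

variable {E Y : Type*} [MeasurableSpace E] [StandardBorelSpace E] [MeasurableSpace Y]
  [StandardBorelSpace Y] (ν : Measure Y) [IsFiniteMeasure ν] (ΦA ΦB : Y × ℝ → E) (g : Y → ℝ)
  (c : E × E × E → ℝ≥0∞) (u : E → ℝ)

/-- (TS-1) weak duality: every coupling costs at least `tsVal`. -/
theorem ts_lower (h : TwoShellHyp ν ΦA ΦB g c u) (π : Measure (E × E × E))
    (hπ : IsCoupling₃ (tsμ ν ΦA ΦB) π) : tsVal ν ΦA ΦB u ≤ ∫⁻ p, c p ∂π := by
  unfold tsVal
  exact OT3.lintegral_ge_of_potential hπ (ts_integrable_u ν ΦA ΦB g c u h)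
    (ts_compl_null ν ΦA ΦB g c u h) (fun x hx y hy z hz => h.adm x y z hx hy hz)

/-- Complementary slackness in the two-shell setting: a coupling whose cost is at most `tsVal`
is concentrated on the contact set. -/
theorem ts_contact_of_le (h : TwoShellHyp ν ΦA ΦB g c u) (π : Measure (E × E × E))
    (hπ : IsCoupling₃ (tsμ ν ΦA ΦB) π) (hle : ∫⁻ p, c p ∂π ≤ tsVal ν ΦA ΦB u) :
    ∀ᵐ p ∂π, c p = ENNReal.ofReal (u p.1 + u p.2.1 + u p.2.2) :=
  OT3.ae_contact_of_lintegral_le hπ h.measc.aemeasurable (ts_integrable_u ν ΦA ΦB g c u h)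
    (ts_compl_null ν ΦA ΦB g c u h) (fun x hx y hy z hz => h.adm x y z hx hy hz) hle

/-- Complementary slackness for Monge pairs: if the Monge cost is at most `tsVal`, then
`(x, T₂ x, T₃ x)` is a contact triple for a.e. `x`, with all three points in the support. -/
theorem ts_contact_of_monge_le (h : TwoShellHyp ν ΦA ΦB g c u) (T₂ T₃ : E → E)
    (h₂ : Measurable T₂) (h₃ : Measurable T₃) (hT₂ : (tsμ ν ΦA ΦB).map T₂ = tsμ ν ΦA ΦB)
    (hT₃ : (tsμ ν ΦA ΦB).map T₃ = tsμ ν ΦA ΦB)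
    (hle : ∫⁻ x, c (x, T₂ x, T₃ x) ∂(tsμ ν ΦA ΦB) ≤ tsVal ν ΦA ΦB u) :
    ∀ᵐ x ∂(tsμ ν ΦA ΦB), x ∈ tsS ΦA ΦB ∧ T₂ x ∈ tsS ΦA ΦB ∧ T₃ x ∈ tsS ΦA ΦB ∧
      c (x, T₂ x, T₃ x) = ENNReal.ofReal (u x + u (T₂ x) + u (T₃ x)) := by
  have hc := OT3.ae_contact_of_monge h₂ h₃ hT₂ hT₃ h.measc (ts_integrable_u ν ΦA ΦB g c u h)
    (ts_compl_null ν ΦA ΦB g c u h) (fun x hx y hy z hz => h.adm x y z hx hy hz) hle
  have hm := OT3.coupling_ae_mem (OT3.isCoupling₃_mongePlan h₂ h₃ hT₂ hT₃)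
    (ts_compl_null ν ΦA ΦB g c u h)
  unfold OT3.mongePlan at hm
  have hm' := ae_of_ae_map (OT3.measurable_mongeMap h₂ h₃).aemeasurable hm
  filter_upwards [hc, hm'] with x hx hx'
  exact ⟨hx'.1, hx'.2.1, hx'.2.2, hx⟩

end Crest.Agent.Helper62
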